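import Vale.Agent.P078.Main

/-! The so-paving number of every diffuse MASA of `B(H)` is at most `⌊1/ε⌋ + 1`. -/

namespace Vale.Agent.Results.P078.DiffuseMasa

open Vale.Agent.P078

theorem result {H : Type*} [NormedAddCommGroup H] [InnerProductSpace ℂ H] [CompleteSpace H]
    (A : VonNeumannAlgebra H) (hA : IsMasa A) (hd : IsDiffuse A) (ε : ℝ) (h0 : 0 < ε)
    (h1 : ε < 1) (x : H →L[ℂ] H) (hx : IsSelfAdjoint x) :
    SoPavable A ε (⌊1 / ε⌋₊ + 1) x := by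
  have h2 : 1 / ε < ((⌊1 / ε⌋₊ + 1 : ℕ) : ℝ) := by
    push_cast
    exact Nat.lt_floor_add_one _
  have h3 : (0 : ℝ) < ((⌊1 / ε⌋₊ + 1 : ℕ) : ℝ) := by positivity
  refine so_pavable hA hd (Nat.succ_pos _) ?_ hx
  rw [div_lt_iff₀ h3]
  rw [div_lt_iff₀ h0] at h2
  linarith

end Vale.Agent.Results.P078.DiffuseMasa
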